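import Vale.Agent.P317.Main

namespace Vale.Agent.Results.P317.FPRAS

open Vale.Agent.P317

theorem result : ∃ (prog : Cmd) (C d : ℕ), ∀ (n : ℕ) (M₁ M₂ : Matroid (Fin n)),
    M₁.E = Set.univ → M₂.E = Set.univ → M₁.eRank = M₂.eRank →
    ∀ ε δ : ℚ, 0 < ε → ε < 1 → 0 < δ → δ < 1 →
      (exec M₁ M₂ prog (input n ε δ, 0)).All
          (fun s => (s.2 : ℝ) ≤ C * ((n : ℝ) + 1 / (ε : ℝ) + Real.log (1 / (δ : ℝ))) ^ d) ∧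
        1 - (δ : ℝ) ≤ (exec M₁ M₂ prog (input n ε δ, 0)).prob fun s =>
          (1 - (ε : ℝ)) * ({B : Set (Fin n) | M₁.IsBase B ∧ M₂.IsBase B}.ncard : ℝ) ≤ (s.1 1 0 : ℝ) ∧
          (s.1 1 0 : ℝ) ≤ (1 + (ε : ℝ)) * ({B : Set (Fin n) | M₁.IsBase B ∧ M₂.IsBase B}.ncard : ℝ) :=
  fpras

end Vale.Agent.Results.P317.FPRAS
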